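import Mathlib

namespace Vale.Agent.P130

open scoped InnerProductSpace ComplexConjugate

variable {H : Type*} [NormedAddCommGroup H] [InnerProductSpace ℂ H]

theorem norm_sub_sum_sq {ι : Type*} {W : ι → H} (hW : Orthonormal ℂ W) (x : H) (F : Finset ι) :
    ‖x - ∑ n ∈ F, ⟪W n, x⟫_ℂ • W n‖ ^ 2 = ‖x‖ ^ 2 - ∑ n ∈ F, ‖⟪W n, x⟫_ℂ‖ ^ 2 := by
  have h1 : ⟪x, ∑ n ∈ F, ⟪W n, x⟫_ℂ • W n⟫_ℂ = ((∑ n ∈ F, ‖⟪W n, x⟫_ℂ‖ ^ 2 : ℝ) : ℂ) := by
    rw [inner_sum]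
    push_cast
    apply Finset.sum_congr rfl
    intro n _
    rw [inner_smul_right, ← inner_conj_symm x (W n), mul_comm, Complex.conj_mul']
  have h2 : ‖∑ n ∈ F, ⟪W n, x⟫_ℂ • W n‖ ^ 2 = ∑ n ∈ F, ‖⟪W n, x⟫_ℂ‖ ^ 2 := by
    have : ⟪∑ n ∈ F, ⟪W n, x⟫_ℂ • W n, ∑ n ∈ F, ⟪W n, x⟫_ℂ • W n⟫_ℂ
        = ((∑ n ∈ F, ‖⟪W n, x⟫_ℂ‖ ^ 2 : ℝ) : ℂ) := by
      rw [hW.inner_sum]
      push_cast
      apply Finset.sum_congr rfl
      intro n _
      rw [Complex.conj_mul']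
    rw [inner_self_eq_norm_sq_to_K] at this
    have h3 : ((‖∑ n ∈ F, ⟪W n, x⟫_ℂ • W n‖ ^ 2 : ℝ) : ℂ) = ((∑ n ∈ F, ‖⟪W n, x⟫_ℂ‖ ^ 2 : ℝ) : ℂ) := by
      rw [← this]; push_cast; rfl
    exact Complex.ofReal_injective h3
  rw [norm_sub_sq (𝕜 := ℂ), h1, h2]
  simp only [RCLike.re_to_complex, Complex.ofReal_re]
  ring

/-- In a Hilbert space with basis `b none, b (some k)` (`k` an integer), an orthonormal family `W`
orthogonal to `b none` whose coefficients are shift covariant is total in the complement of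
`b none`. -/
theorem total_of_shift (b : HilbertBasis (Option ℤ) ℂ H) (W : ℤ → H) (hW : Orthonormal ℂ W)
    (hW0 : ⟪b none, W 0⟫_ℂ = 0)
    (hshift : ∀ n k : ℤ, ⟪W n, b (some k)⟫_ℂ = ⟪W 0, b (some (k - n))⟫_ℂ)
    (v : H) (hv0 : ⟪b none, v⟫_ℂ = 0) (hv : ∀ n, ⟪W n, v⟫_ℂ = 0) : v = 0 := by
  have hpars : HasSum (fun i : Option ℤ => ‖⟪W 0, b i⟫_ℂ‖ ^ 2) 1 := by
    have h := b.hasSum_inner_mul_inner (W 0) (W 0)
    have h1 : ⟪W 0, W 0⟫_ℂ = 1 := by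
      rw [inner_self_eq_norm_sq_to_K, hW.1 0]; simp
    rw [h1] at h
    have h2 := Complex.hasSum_re h
    simp only [Complex.one_re] at h2
    convert h2 using 2 with i
    rw [← inner_conj_symm (b i) (W 0), Complex.mul_conj']
    norm_cast
  have hpars' : HasSum (fun j : ℤ => ‖⟪W 0, b (some j)⟫_ℂ‖ ^ 2) 1 := by
    have hinj : Function.Injective (some : ℤ → Option ℤ) := Option.some_injective _
    rw [← hinj.hasSum_iff] at hpars
    · exact hpars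
    · intro i hi
      cases i with
      | none =>
        rw [← inner_conj_symm, hW0]; simp
      | some j => exact absurd ⟨j, rfl⟩ hi
  have hk : ∀ k : ℤ, ⟪b (some k), v⟫_ℂ = 0 := by
    intro k
    have hs : HasSum (fun n : ℤ => ‖⟪W n, b (some k)⟫_ℂ‖ ^ 2) 1 := by
      have e : (fun n : ℤ => ‖⟪W n, b (some k)⟫_ℂ‖ ^ 2)
          = (fun j : ℤ => ‖⟪W 0, b (some j)⟫_ℂ‖ ^ 2) ∘ (Equiv.subLeft k) := by
        funext n
        simp [hshift n k]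
      rw [e]
      exact (Equiv.hasSum_iff (Equiv.subLeft k)).2 hpars'
    by_contra hne
    have hpos : 0 < ‖⟪b (some k), v⟫_ℂ‖ := norm_pos_iff.2 hne
    have hvpos : 0 < ‖v‖ := by
      rw [norm_pos_iff]
      rintro rfl
      simp at hne
    set ε := (‖⟪b (some k), v⟫_ℂ‖ / ‖v‖) ^ 2 with hε
    have hεpos : 0 < ε := by positivity
    have hev := hs.eventually (lt_mem_nhds (show (1 : ℝ) - ε < 1 by linarith))
    obtain ⟨F, hF⟩ := hev.exists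
    have hid := norm_sub_sum_sq hW (b (some k)) F
    have hb1 : ‖b (some k)‖ = 1 := b.orthonormal.1 _
    rw [hb1] at hid
    set y := ∑ n ∈ F, ⟪W n, b (some k)⟫_ℂ • W n with hy
    have hyv : ⟪y, v⟫_ℂ = 0 := by
      rw [hy, sum_inner]
      apply Finset.sum_eq_zero
      intro n _
      rw [inner_smul_left, hv n, mul_zero]
    have h3 : ⟪b (some k), v⟫_ℂ = ⟪b (some k) - y, v⟫_ℂ := by
      rw [inner_sub_left, hyv, sub_zero]
    have h4 : ‖⟪b (some k), v⟫_ℂ‖ ≤ ‖b (some k) - y‖ * ‖v‖ := by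
      rw [h3]; exact norm_inner_le_norm _ _
    have h5 : ‖b (some k) - y‖ ^ 2 < ε := by
      rw [hid]; linarith
    have h6 : ‖⟪b (some k), v⟫_ℂ‖ / ‖v‖ ≤ ‖b (some k) - y‖ := by
      rw [div_le_iff₀ hvpos]; exact h4
    have h7 : ε ≤ ‖b (some k) - y‖ ^ 2 := by
      rw [hε]
      exact pow_le_pow_left₀ (by positivity) h6 2
    linarith
  have hall : ∀ i, ⟪b i, v⟫_ℂ = 0 := by
    intro i
    cases i with
    | none => exact hv0
    | some k => exact hk k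
  have hrepr : b.repr v = 0 := by
    ext i
    rw [b.repr_apply_apply, hall i]
    simp
  exact b.repr.map_eq_zero_iff.1 hrepr

end Vale.Agent.P130
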