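import Vale.Agent.P130.Iterates
import Vale.Agent.P130.Hilbert

namespace Vale.Agent.P130

open MeasureTheory
open scoped ComplexConjugate InnerProductSpace

variable {X : Type*} [MeasurableSpace X] {μ : Measure X}

theorem inner_toLp {g h : X → ℂ} (hg : MemLp g 2 μ) (hh : MemLp h 2 μ) :
    ⟪hg.toLp g, hh.toLp h⟫_ℂ = ∫ x, h x * conj (g x) ∂μ := by
  rw [L2.inner_def]
  apply integral_congr_ae
  filter_upwards [hg.coeFn_toLp, hh.coeFn_toLp] with x h1 h2
  rw [h1, h2, RCLike.inner_apply]

theorem exists_basis [IsProbabilityMeasure μ] {T : X ≃ᵐ X} (hT : MeasurePreserving T μ μ)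
    {f : X → ℂ} (hf : IsLebesgueGenerator μ T f) :
    ∃ b : HilbertBasis (Option ℤ) ℂ (Lp ℂ 2 μ),
      b none = (memLp_const (1 : ℂ)).toLp (fun _ : X => (1 : ℂ)) ∧
      ∀ n : ℤ, b (some n) = (memLp_iter hT n hf.1).toLp (fun x => f (iter T n x)) := by
  obtain ⟨hf2, hf0, hfo, hfc⟩ := hf
  set v : Option ℤ → Lp ℂ 2 μ := fun i =>
    match i with
    | none => (memLp_const (1 : ℂ)).toLp (fun _ : X => (1 : ℂ))
    | some n => (memLp_iter hT n hf2).toLp (fun x => f (iter T n x)) with hv
  have hmean : ∀ n : ℤ, ∫ x, f (iter T n x) ∂μ = 0 := by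
    intro n
    rw [integral_iter hT n f, hf0]
  have hon : Orthonormal ℂ v := by
    rw [orthonormal_iff_ite]
    intro i j
    cases i with
    | none =>
      cases j with
      | none =>
        simp only [hv]
        rw [inner_toLp]
        simp
      | some m =>
        simp only [hv]
        rw [inner_toLp]
        simp [hmean m]
    | some n =>
      cases j with
      | none =>
        simp only [hv]
        rw [inner_toLp]
        simp only [one_mul, reduceCtorEq, if_false]
        rw [integral_conj, hmean n]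
        simp
      | some m =>
        simp only [hv]
        rw [inner_toLp]
        have := hfo m n
        simp only [iter_apply]
        rw [this]
        simp only [Option.some.injEq]
        by_cases h : n = m
        · simp [h]
        · simp [h, Ne.symm h]
  have hsp : (Submodule.span ℂ (Set.range v))ᗮ = ⊥ := by
    rw [Submodule.eq_bot_iff]
    intro x hx
    rw [Submodule.mem_orthogonal] at hx
    have hx' : ∀ i, ⟪v i, x⟫_ℂ = 0 := fun i => hx _ (Submodule.subset_span ⟨i, rfl⟩)
    have hxm : MemLp (⇑x) 2 μ := Lp.memLp x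
    have hxe : hxm.toLp (⇑x) = x := Lp.toLp_coeFn x hxm
    have h0 : ∫ y, x y ∂μ = 0 := by
      have := hx' none
      simp only [hv] at this
      rw [← hxe, inner_toLp] at this
      simpa using this
    have hn : ∀ n : ℤ, ∫ y, x y * conj (f ((T.toEquiv ^ n) y)) ∂μ = 0 := by
      intro n
      have := hx' (some n)
      simp only [hv] at this
      rw [← hxe, inner_toLp] at this
      exact this
    have := hfc (⇑x) hxm h0 hn
    exact (Lp.eq_zero_iff_ae_eq_zero).2 this
  refine ⟨HilbertBasis.mkOfOrthogonalEqBot hon hsp, ?_, ?_⟩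
  · rw [HilbertBasis.coe_mkOfOrthogonalEqBot]
  · intro n
    rw [HilbertBasis.coe_mkOfOrthogonalEqBot]

end Vale.Agent.P130
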