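import Vale.Agent.P130.Periodic

namespace Vale.Agent.P130

open MeasureTheory Filter
open scoped ComplexConjugate

variable {X : Type*} {𝒞 m0 : MeasurableSpace X} {μ : Measure X}

theorem integral_mul_eq_zero [IsProbabilityMeasure μ] (h𝒞 : 𝒞 ≤ m0)
    {w : X → ℂ} (hw2 : MemLp w 2 μ) (hcond : μ[w|𝒞] =ᵐ[μ] 0)
    {k : X → ℂ} (hk : StronglyMeasurable[𝒞] k) (hk2 : MemLp k 2 μ) :
    ∫ x, k x * w x ∂μ = 0 := by
  have hint : Integrable (fun x => k x * w x) μ := hk2.integrable_mul hw2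
  have hwi : Integrable w μ := hw2.integrable (by norm_num)
  have h1 := condExp_bilin_of_stronglyMeasurable_left (μ := μ) (ContinuousLinearMap.mul ℝ ℂ) hk
    hint hwi
  rw [← integral_condExp h𝒞]
  have h2 : μ[fun x => k x * w x|𝒞] =ᵐ[μ] fun _ => 0 := by
    refine h1.trans ?_
    filter_upwards [hcond] with x hx
    simp [hx]
  rw [integral_congr_ae h2]
  simp

theorem stronglyMeasurable_iter {T : X ≃ᵐ X}
    (hT𝒞 : @Measurable X X 𝒞 𝒞 T) {u : X → ℂ}
    (hu : StronglyMeasurable[𝒞] u) (j : ℕ) :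
    StronglyMeasurable[𝒞] (fun x => u (iter T (j : ℤ) x)) := by
  induction j with
  | zero =>
    simpa [iter_zero] using hu
  | succ j ih =>
    have : (fun x => u (iter T ((j + 1 : ℕ) : ℤ) x)) = (fun y => u (iter T (j : ℤ) y)) ∘ T := by
      funext x
      simp only [Function.comp]
      push_cast
      rw [iter_add, iter_one]
    rw [this]
    exact ih.comp_measurable hT𝒞

theorem stronglyMeasurable_iter_succ {T : X ≃ᵐ X}
    (hT𝒞 : @Measurable X X 𝒞 𝒞 T) {w : X → ℂ}
    (hwT : StronglyMeasurable[𝒞] (fun x => w (T x))) (j : ℕ) :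
    StronglyMeasurable[𝒞] (fun x => w (iter T ((j : ℤ) + 1) x)) := by
  have := stronglyMeasurable_iter hT𝒞 hwT j
  have e : (fun x => w (iter T ((j : ℤ) + 1) x)) = fun x => w (T (iter T (j : ℤ) x)) := by
    funext x
    rw [add_comm, iter_add, iter_one]
  rw [e]
  exact this

end Vale.Agent.P130
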