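import Vale.Agent.P130.Core1

namespace Vale.Agent.P130

open MeasureTheory Filter
open scoped ComplexConjugate

variable {X : Type*} {𝒞 m0 : MeasurableSpace X} {μ : Measure X}

theorem memLp_conj {u : X → ℂ} (hu : MemLp u 2 μ) : MemLp (fun x => conj (u x)) 2 μ := by
  have := hu.star
  exact this

theorem stronglyMeasurable_conj {u : X → ℂ} (hu : StronglyMeasurable[𝒞] u) :
    StronglyMeasurable[𝒞] (fun x => conj (u x)) :=
  Complex.continuous_conj.comp_stronglyMeasurable hu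

theorem corr_zero [IsProbabilityMeasure μ] {T : X ≃ᵐ X} (hT : MeasurePreserving T μ μ)
    (h𝒞 : 𝒞 ≤ m0) (hT𝒞 : @Measurable X X 𝒞 𝒞 T) {w : X → ℂ} (hw2 : MemLp w 2 μ)
    (hwT : StronglyMeasurable[𝒞] (fun x => w (T x))) (hcond : μ[w|𝒞] =ᵐ[μ] 0) (j : ℕ) :
    ∫ x, conj (w (iter T ((j : ℤ) + 1) x)) * w x ∂μ = 0 :=
  integral_mul_eq_zero h𝒞 hw2 hcond
    (stronglyMeasurable_conj (stronglyMeasurable_iter_succ hT𝒞 hwT j))
    (memLp_conj (memLp_iter hT _ hw2))

theorem orbit_orthonormal [IsProbabilityMeasure μ] {T : X ≃ᵐ X} (hT : MeasurePreserving T μ μ)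
    (h𝒞 : 𝒞 ≤ m0) (hT𝒞 : @Measurable X X 𝒞 𝒞 T) {w : X → ℂ} (hw2 : MemLp w 2 μ)
    (hwT : StronglyMeasurable[𝒞] (fun x => w (T x))) (hcond : μ[w|𝒞] =ᵐ[μ] 0)
    (hnorm : ∫ x, w x * conj (w x) ∂μ = 1) (n m : ℤ) :
    ∫ x, w ((T.toEquiv ^ n) x) * conj (w ((T.toEquiv ^ m) x)) ∂μ = if n = m then 1 else 0 := by
  rcases lt_trichotomy n m with h | h | h
  · obtain ⟨j, hj⟩ : ∃ j : ℕ, m = ((j : ℤ) + 1) + n := by
      refine ⟨(m - n - 1).toNat, ?_⟩
      rw [Int.toNat_of_nonneg (by omega)]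
      ring
    rw [if_neg h.ne]
    have h1 := integral_iter hT n (fun y => w y * conj (w (iter T ((j : ℤ) + 1) y)))
    have h2 : ∫ y, w y * conj (w (iter T ((j : ℤ) + 1) y)) ∂μ = 0 := by
      rw [← corr_zero hT h𝒞 hT𝒞 hw2 hwT hcond j]
      apply integral_congr_ae
      filter_upwards with y
      ring
    rw [h2] at h1
    rw [← h1]
    apply integral_congr_ae
    filter_upwards with x
    rw [← iter_add, ← hj]
    rfl
  · subst h
    rw [if_pos rfl, ← hnorm]
    exact integral_iter hT n (fun y => w y * conj (w y))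
  · obtain ⟨j, hj⟩ : ∃ j : ℕ, n = ((j : ℤ) + 1) + m := by
      refine ⟨(n - m - 1).toNat, ?_⟩
      rw [Int.toNat_of_nonneg (by omega)]
      ring
    rw [if_neg h.ne']
    have h1 := integral_iter hT m (fun y => w (iter T ((j : ℤ) + 1) y) * conj (w y))
    have h2 : ∫ y, w (iter T ((j : ℤ) + 1) y) * conj (w y) ∂μ = 0 := by
      have h3 := corr_zero hT h𝒞 hT𝒞 hw2 hwT hcond j
      have h4 := congrArg conj h3
      rw [← integral_conj] at h4
      simp only [map_mul, Complex.conj_conj, map_zero] at h4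
      exact h4
    rw [h2] at h1
    rw [← h1]
    apply integral_congr_ae
    filter_upwards with x
    rw [← iter_add, ← hj]
    rfl

end Vale.Agent.P130
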