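import Vale.Agent.P130.Core2

namespace Vale.Agent.P130

open MeasureTheory Filter
open scoped ComplexConjugate ENNReal

variable {X : Type*} {𝒞 m0 : MeasurableSpace X} {μ : Measure X}

theorem memLp_bdd_mul {κ u : X → ℂ} {M : ℝ} (hκ : AEStronglyMeasurable κ μ)
    (hb : ∀ x, ‖κ x‖ ≤ M) (hu : MemLp u 2 μ) : MemLp (fun x => κ x * u x) 2 μ :=
  hu.mul' (memLp_top_of_bound hκ M (Eventually.of_forall hb))

/-- Multiplying `w` by a bounded function measurable with respect to the small sigma-algebra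
gives a multiple of `w`. -/
theorem indicator_mul_ae [IsProbabilityMeasure μ] {T : X ≃ᵐ X} (hT : MeasurePreserving T μ μ)
    (h𝒞 : 𝒞 ≤ m0) (hT𝒞 : @Measurable X X 𝒞 𝒞 T) {w : X → ℂ} (hw2 : MemLp w 2 μ)
    (hwT : StronglyMeasurable[𝒞] (fun x => w (T x))) (hcond : μ[w|𝒞] =ᵐ[μ] 0)
    (hnorm : ∫ x, w x * conj (w x) ∂μ = 1) (hgen : IsLebesgueGenerator μ T w)
    {C : Set X} (hC : MeasurableSet[𝒞] C) :
    ∃ l : ℂ, ∀ᵐ x ∂μ, (C.indicator (fun _ => (1 : ℂ)) x - l) * w x = 0 := by
  set l : ℂ := ∫ x, C.indicator (fun _ => (1 : ℂ)) x * (w x * conj (w x)) ∂μ with hl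
  refine ⟨l, ?_⟩
  set κ : X → ℂ := fun x => C.indicator (fun _ => (1 : ℂ)) x - l with hκdef
  have hκ : StronglyMeasurable[𝒞] κ :=
    (stronglyMeasurable_const.indicator hC).sub stronglyMeasurable_const
  have hκ0 : AEStronglyMeasurable κ μ := (hκ.mono h𝒞).aestronglyMeasurable
  have hb : ∀ x, ‖κ x‖ ≤ 1 + ‖l‖ := by
    intro x
    simp only [hκdef]
    refine (norm_sub_le _ _).trans ?_
    gcongr
    by_cases hx : x ∈ C <;> simp [hx]
  have hκ2 : MemLp κ 2 μ := MemLp.of_bound hκ0 (1 + ‖l‖) (Eventually.of_forall hb)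
  have hg2 : MemLp (fun x => κ x * w x) 2 μ := memLp_bdd_mul hκ0 hb hw2
  have hg0 : ∫ x, κ x * w x ∂μ = 0 := integral_mul_eq_zero h𝒞 hw2 hcond hκ hκ2
  have hww : Integrable (fun x => w x * conj (w x)) μ := hw2.integrable_mul (memLp_conj hw2)
  have key : ∀ n : ℤ, ∫ x, κ x * w x * conj (w ((T.toEquiv ^ n) x)) ∂μ = 0 := by
    intro n
    rcases lt_trichotomy n 0 with h | h | h
    · obtain ⟨j, hj⟩ : ∃ j : ℕ, n = -((j + 1 : ℕ) : ℤ) := by
        refine ⟨(-n - 1).toNat, ?_⟩
        push_cast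
        rw [Int.toNat_of_nonneg (by omega)]
        ring
      have h1 := integral_iter hT ((j + 1 : ℕ) : ℤ)
        (fun x => κ x * w x * conj (w (iter T n x)))
      have hk : StronglyMeasurable[𝒞]
          (fun y => conj (κ (iter T ((j + 1 : ℕ) : ℤ) y) * w (iter T ((j + 1 : ℕ) : ℤ) y))) := by
        apply stronglyMeasurable_conj
        apply (stronglyMeasurable_iter hT𝒞 hκ (j + 1)).mul
        have := stronglyMeasurable_iter_succ hT𝒞 hwT j
        push_cast
        exact this
      have hk2 : MemLp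
          (fun y => conj (κ (iter T ((j + 1 : ℕ) : ℤ) y) * w (iter T ((j + 1 : ℕ) : ℤ) y))) 2 μ :=
        memLp_conj (memLp_iter hT _ hg2)
      have h2 := integral_mul_eq_zero h𝒞 hw2 hcond hk hk2
      have h3 := congrArg conj h2
      rw [← integral_conj] at h3
      simp only [map_mul, Complex.conj_conj, map_zero] at h3
      have h4 : ∫ x, κ x * w x * conj (w ((T.toEquiv ^ n) x)) ∂μ
          = ∫ x, κ x * w x * conj (w (iter T n x)) ∂μ := rfl
      rw [h4, ← h1, ← h3]
      apply integral_congr_ae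
      filter_upwards with y
      rw [← iter_add, hj, neg_add_cancel, iter_zero]
    · subst h
      have e : ∀ x, κ x * w x * conj (w ((T.toEquiv ^ (0 : ℤ)) x))
          = C.indicator (fun _ => (1 : ℂ)) x * (w x * conj (w x)) - l * (w x * conj (w x)) := by
        intro x
        simp only [hκdef, zpow_zero, Equiv.Perm.coe_one, id]
        ring
      simp only [e]
      rw [integral_sub, integral_const_mul, hnorm, ← hl]
      · ring
      · have : (fun x => C.indicator (fun _ => (1 : ℂ)) x * (w x * conj (w x)))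
            = C.indicator (fun x => w x * conj (w x)) := by
          funext x
          by_cases hx : x ∈ C <;> simp [hx]
        rw [this]
        exact hww.indicator (h𝒞 _ hC)
      · exact hww.const_mul l
    · obtain ⟨j, hj⟩ : ∃ j : ℕ, n = (j : ℤ) + 1 := by
        refine ⟨(n - 1).toNat, ?_⟩
        rw [Int.toNat_of_nonneg (by omega)]
        ring
      have hk : StronglyMeasurable[𝒞] (fun x => κ x * conj (w (iter T ((j : ℤ) + 1) x))) :=
        hκ.mul (stronglyMeasurable_conj (stronglyMeasurable_iter_succ hT𝒞 hwT j))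
      have hk2 : MemLp (fun x => κ x * conj (w (iter T ((j : ℤ) + 1) x))) 2 μ :=
        memLp_bdd_mul hκ0 hb (memLp_conj (memLp_iter hT _ hw2))
      have h2 := integral_mul_eq_zero h𝒞 hw2 hcond hk hk2
      rw [← h2, hj]
      apply integral_congr_ae
      filter_upwards with x
      rw [← iter_apply]
      ring
  exact hgen.2.2.2 _ hg2 hg0 key

end Vale.Agent.P130
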