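import Vale.Agent.P130.Core3

namespace Vale.Agent.P130

open MeasureTheory Filter
open scoped ComplexConjugate ENNReal

variable {X : Type*} {𝒞 m0 : MeasurableSpace X} {μ : Measure X}

theorem false_of_normalized [IsProbabilityMeasure μ] {T : X ≃ᵐ X} (hT : MeasurePreserving T μ μ)
    {f : X → ℂ} (hf : IsLebesgueGenerator μ T f)
    (h𝒞 : 𝒞 ≤ m0) (hT𝒞 : @Measurable X X 𝒞 𝒞 T) {w : X → ℂ} (hwm : StronglyMeasurable w)
    (hw2 : MemLp w 2 μ)
    (hwT : StronglyMeasurable[𝒞] (fun x => w (T x))) (hcond : μ[w|𝒞] =ᵐ[μ] 0)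
    (hnorm : ∫ x, w x * conj (w x) ∂μ = 1) : False := by
  have hw0 : ∫ x, w x ∂μ = 0 := by
    have := integral_mul_eq_zero h𝒞 hw2 hcond (k := fun _ => (1 : ℂ)) stronglyMeasurable_const
      (memLp_const 1)
    simpa using this
  have hgen : IsLebesgueGenerator μ T w :=
    generator_of_orthonormal hT hf hw2 hw0 (orbit_orthonormal hT h𝒞 hT𝒞 hw2 hwT hcond hnorm)
  set E : Set X := {x | w x ≠ 0} with hEdef
  have hE : MeasurableSet E := hwm.measurable (measurableSet_singleton (0 : ℂ)).compl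
  have hEpos : μ E ≠ 0 := by
    intro h0
    have hae : ∀ᵐ x ∂μ, w x = 0 := by
      rw [ae_iff]
      exact h0
    have : ∫ x, w x * conj (w x) ∂μ = 0 := by
      apply integral_eq_zero_of_ae
      filter_upwards [hae] with x hx
      simp [hx]
    rw [this] at hnorm
    exact zero_ne_one hnorm
  obtain ⟨m, hm, hne⟩ :=
    hT.conservative.exists_gt_measure_inter_ne_zero hE.nullMeasurableSet hEpos 0
  obtain ⟨j, rfl⟩ : ∃ j, m = j + 1 := ⟨m - 1, by omega⟩
  set C : Set X := {x | w (iter T ((j : ℤ) + 1) x) ≠ 0} with hCdef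
  have hCeq : (⇑T)^[j + 1] ⁻¹' E = C := by
    rw [← iter_natCast]
    ext x
    simp only [hCdef, hEdef, Set.mem_preimage, Set.mem_ofPred_eq]
    push_cast
    rfl
  rw [hCeq] at hne
  have hC𝒞 : MeasurableSet[𝒞] C :=
    (stronglyMeasurable_iter_succ hT𝒞 hwT j).measurable (measurableSet_singleton (0 : ℂ)).compl
  obtain ⟨l, hl⟩ := indicator_mul_ae hT h𝒞 hT𝒞 hw2 hwT hcond hnorm hgen hC𝒞
  have hl1 : l = 1 := by
    obtain ⟨x, hx, hx2⟩ := Measure.exists_mem_of_measure_ne_zero_of_ae hne (ae_restrict_of_ae hl)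
    have hxE : w x ≠ 0 := hx.1
    have hxC : x ∈ C := hx.2
    rw [Set.indicator_of_mem hxC] at hx2
    have := (mul_eq_zero.1 hx2).resolve_right hxE
    exact (sub_eq_zero.1 this).symm
  have hsub : E ≤ᵐ[μ] C := by
    filter_upwards [hl] with x hx hxE
    by_contra hxC
    have hxC' : x ∉ C := hxC
    rw [Set.indicator_of_notMem hxC', hl1] at hx
    have hxE' : w x ≠ 0 := hxE
    have := (mul_eq_zero.1 hx).resolve_right hxE'
    norm_num at this
  have hμC : μ C = μ E := by
    have := (iter_measurePreserving hT ((j : ℤ) + 1)).measure_preimage hE.nullMeasurableSet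
    exact this
  have hCE : E =ᵐ[μ] C :=
    ae_eq_of_ae_subset_of_measure_ge hsub hμC.le hE.nullMeasurableSet (measure_ne_top μ C)
  set c : ℂ := ((μ.real E : ℝ) : ℂ) with hc
  set g0 : X → ℂ := fun x => E.indicator (fun _ => (1 : ℂ)) x - c with hg0def
  have hg0m : AEStronglyMeasurable g0 μ :=
    ((stronglyMeasurable_const.indicator hE).sub stronglyMeasurable_const).aestronglyMeasurable
  have hg02 : MemLp g0 2 μ := by
    apply MemLp.of_bound hg0m (1 + ‖c‖)
    filter_upwards with x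
    simp only [hg0def]
    refine (norm_sub_le _ _).trans ?_
    gcongr
    by_cases hx : x ∈ E <;> simp [hx]
  have hg00 : ∫ x, g0 x ∂μ = 0 := by
    simp only [hg0def]
    rw [integral_sub ((integrable_const (1 : ℂ)).indicator hE) (integrable_const c),
      integral_indicator hE]
    simp [hc]
  have hper : (fun x => g0 (iter T ((j + 1 : ℕ) : ℤ) x)) =ᵐ[μ] g0 := by
    have h1 := indicator_ae_eq_of_ae_eq_set (f := fun _ : X => (1 : ℂ)) hCE
    filter_upwards [h1] with x hx
    simp only [hg0def]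
    rw [hx]
    congr 1
  have hg0z := ae_zero_of_periodic hT hgen hg02 hg00 (Nat.succ_pos j) hper
  have hc1 : c = 1 := by
    obtain ⟨x, hx, hx2⟩ := Measure.exists_mem_of_measure_ne_zero_of_ae hEpos (ae_restrict_of_ae hg0z)
    simp only [hg0def, Pi.zero_apply] at hx2
    rw [Set.indicator_of_mem hx] at hx2
    exact (sub_eq_zero.1 hx2).symm
  have hwne : ∀ᵐ x ∂μ, w x ≠ 0 := by
    filter_upwards [hg0z] with x hx
    by_contra hxE
    have hxE' : x ∉ E := fun h => h hxE
    simp only [hg0def, Pi.zero_apply] at hx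
    rw [Set.indicator_of_notMem hxE', hc1] at hx
    norm_num at hx
  have hhint : Integrable (fun x => w (T x)) μ :=
    (hw2.comp_measurePreserving hT).integrable (by norm_num)
  have hh0 : ∫ x, w (T x) ∂μ = 0 := by
    rw [hT.integral_comp' w, hw0]
  have hset : ∀ s, MeasurableSet[𝒞] s → μ s < ∞ →
      ∫ x in s, (0 : X → ℂ) x ∂μ = ∫ x in s, w (T x) ∂μ := by
    intro s hs _
    obtain ⟨l', hl'⟩ := indicator_mul_ae hT h𝒞 hT𝒞 hw2 hwT hcond hnorm hgen hs
    have h1 : ∀ᵐ x ∂μ, s.indicator (fun _ => (1 : ℂ)) x = l' := by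
      filter_upwards [hl', hwne] with x hx hx2
      exact sub_eq_zero.1 ((mul_eq_zero.1 hx).resolve_right hx2)
    rw [← integral_indicator (f := fun x => w (T x)) (h𝒞 _ hs)]
    have h2 : ∫ x, s.indicator (fun x => w (T x)) x ∂μ = ∫ x, l' * w (T x) ∂μ := by
      apply integral_congr_ae
      filter_upwards [h1] with x hx
      rw [← hx]
      by_cases hxs : x ∈ s <;> simp [hxs]
    rw [h2, integral_const_mul, hh0]
    simp
  have hz : (0 : X → ℂ) =ᵐ[μ] μ[fun x => w (T x)|𝒞] :=
    ae_eq_condExp_of_forall_setIntegral_eq h𝒞 hhint (fun s _ _ => integrableOn_zero) hset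
      stronglyMeasurable_zero.aestronglyMeasurable
  rw [condExp_of_stronglyMeasurable h𝒞 hwT hhint] at hz
  have : ∫ x, w x * conj (w x) ∂μ = 0 := by
    rw [← hT.integral_comp' (fun y => w y * conj (w y))]
    apply integral_eq_zero_of_ae
    filter_upwards [hz] with x hx
    simp only [Pi.zero_apply] at hx
    simp [← hx]
  rw [this] at hnorm
  exact zero_ne_one hnorm

end Vale.Agent.P130
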