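import Mathlib

namespace Vale.Agent.P130

open MeasureTheory
open scoped ComplexConjugate

variable {X : Type*} [MeasurableSpace X]

/-- The functions `f ∘ T^n`, `n` an integer, form an orthonormal basis of the space of
square integrable mean zero functions: they are orthonormal, have mean zero, and the only
square integrable mean zero function orthogonal to all of them is zero. -/
def IsLebesgueGenerator (μ : Measure X) (T : X ≃ᵐ X) (f : X → ℂ) : Prop :=
  MemLp f 2 μ ∧ ∫ x, f x ∂μ = 0 ∧
  (∀ n m : ℤ, ∫ x, f ((T.toEquiv ^ n) x) * conj (f ((T.toEquiv ^ m) x)) ∂μ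
      = if n = m then 1 else 0) ∧
  (∀ g : X → ℂ, MemLp g 2 μ → ∫ x, g x ∂μ = 0 →
    (∀ n : ℤ, ∫ x, g x * conj (f ((T.toEquiv ^ n) x)) ∂μ = 0) → g =ᵐ[μ] 0)

/-- `T` is an invertible measure preserving transformation with simple Lebesgue spectrum. -/
def HasSimpleLebesgueSpectrum (μ : Measure X) (T : X ≃ᵐ X) : Prop :=
  MeasurePreserving T μ μ ∧ ∃ f : X → ℂ, IsLebesgueGenerator μ T f

end Vale.Agent.P130
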