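import Vale.Agent.P130.Core4

namespace Vale.Agent.P130

open MeasureTheory Filter
open scoped ComplexConjugate ENNReal

variable {X : Type*} {𝒞 m0 : MeasurableSpace X} {μ : Measure X}

theorem ae_zero_of_condExp_zero [IsProbabilityMeasure μ] {T : X ≃ᵐ X}
    (hT : MeasurePreserving T μ μ) {f : X → ℂ} (hf : IsLebesgueGenerator μ T f)
    (h𝒞 : 𝒞 ≤ m0) (hT𝒞 : @Measurable X X 𝒞 𝒞 T) {w : X → ℂ} (hwm : StronglyMeasurable w)
    (hw2 : MemLp w 2 μ)
    (hwT : StronglyMeasurable[𝒞] (fun x => w (T x))) (hcond : μ[w|𝒞] =ᵐ[μ] 0) :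
    w =ᵐ[μ] 0 := by
  by_contra hne
  set r : ℝ := ∫ x, ‖w x‖ ^ 2 ∂μ with hr
  have hint : Integrable (fun x => ‖w x‖ ^ 2) μ := hw2.integrable_norm_pow (by norm_num)
  have hr0 : 0 ≤ r := integral_nonneg (fun x => by positivity)
  have hrne : r ≠ 0 := by
    intro h0
    apply hne
    have := (integral_eq_zero_iff_of_nonneg (fun x => by positivity) hint).1 h0
    filter_upwards [this] with x hx
    simpa using hx
  have hrpos : 0 < r := lt_of_le_of_ne hr0 (Ne.symm hrne)
  set a : ℝ := (Real.sqrt r)⁻¹ with ha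
  have ha2 : a ^ 2 * r = 1 := by
    rw [ha, inv_pow, Real.sq_sqrt hr0, inv_mul_cancel₀ hrne]
  have hwc : ∫ x, w x * conj (w x) ∂μ = (r : ℂ) := by
    rw [hr, ← integral_complex_ofReal]
    apply integral_congr_ae
    filter_upwards with x
    rw [Complex.mul_conj']
    push_cast
    rfl
  apply false_of_normalized hT hf h𝒞 hT𝒞 (w := fun x => (a : ℂ) * w x)
    (stronglyMeasurable_const.mul hwm) (hw2.const_mul (a : ℂ))
    (stronglyMeasurable_const.mul hwT)
  · have h1 := condExp_smul (μ := μ) (a : ℂ) w 𝒞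
    have e : (fun x => (a : ℂ) * w x) = (a : ℂ) • w := by
      funext x; simp
    rw [e]
    refine h1.trans ?_
    filter_upwards [hcond] with x hx
    simp [hx]
  · have e : ∀ x, (a : ℂ) * w x * conj ((a : ℂ) * w x) = ((a ^ 2 : ℝ) : ℂ) * (w x * conj (w x)) := by
      intro x
      rw [map_mul, Complex.conj_ofReal]
      push_cast
      ring
    simp only [e]
    rw [integral_const_mul, hwc, ← Complex.ofReal_mul, ha2]
    simp

/-- Main determinism statement. -/
theorem ae_eq_condExp [IsProbabilityMeasure μ] {T : X ≃ᵐ X}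
    (h : HasSimpleLebesgueSpectrum μ T)
    (h𝒞 : 𝒞 ≤ m0) (hT𝒞 : @Measurable X X 𝒞 𝒞 T) {g : X → ℂ} (hg2 : MemLp g 2 μ)
    (hgT : StronglyMeasurable[𝒞] (fun x => g (T x))) : g =ᵐ[μ] μ[g|𝒞] := by
  obtain ⟨hT, f, hf⟩ := h
  have hgm : StronglyMeasurable g := by
    have := (hgT.mono h𝒞).comp_measurable T.symm.measurable
    simpa [Function.comp_def] using this
  have hgi : Integrable g μ := hg2.integrable (by norm_num)
  have hcm : StronglyMeasurable[𝒞] (μ[g|𝒞]) := stronglyMeasurable_condExp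
  have hw := ae_zero_of_condExp_zero hT hf h𝒞 hT𝒞 (w := g - μ[g|𝒞])
    (hgm.sub (hcm.mono h𝒞)) (hg2.sub (hg2.condExp (by norm_num)))
    (hgT.sub (hcm.comp_measurable hT𝒞)) ?_
  · filter_upwards [hw] with x hx
    simp only [Pi.sub_apply, Pi.zero_apply] at hx
    exact sub_eq_zero.1 hx
  · refine (condExp_sub hgi integrable_condExp 𝒞).trans ?_
    rw [condExp_of_stronglyMeasurable h𝒞 hcm integrable_condExp]
    simp

end Vale.Agent.P130
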