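import Vale.Agent.P130.Defs

namespace Vale.Agent.P130

open MeasureTheory
open scoped ComplexConjugate

variable {X : Type*} [MeasurableSpace X]

theorem measurable_zpow (T : X ≃ᵐ X) (n : ℤ) : Measurable (⇑(T.toEquiv ^ n)) := by
  induction n using Int.induction_on with
  | zero => simpa using measurable_id
  | succ n ih =>
    rw [zpow_add_one, Equiv.Perm.coe_mul]
    exact ih.comp T.measurable
  | pred n ih =>
    rw [zpow_sub_one, Equiv.Perm.coe_mul]
    exact ih.comp T.symm.measurable

/-- The integer iterates of a measurable equivalence. -/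
def iter (T : X ≃ᵐ X) (n : ℤ) : X ≃ᵐ X where
  toEquiv := T.toEquiv ^ n
  measurable_toFun := measurable_zpow T n
  measurable_invFun := by
    have : ⇑(T.toEquiv ^ n).symm = ⇑(T.toEquiv ^ (-n)) := by
      rw [zpow_neg]; rfl
    show Measurable ⇑(T.toEquiv ^ n).symm
    rw [this]
    exact measurable_zpow T (-n)

theorem iter_apply (T : X ≃ᵐ X) (n : ℤ) (x : X) : iter T n x = (T.toEquiv ^ n) x := rfl

theorem iter_add (T : X ≃ᵐ X) (n m : ℤ) (x : X) : iter T (n + m) x = iter T n (iter T m x) := by
  simp only [iter_apply, zpow_add, Equiv.Perm.mul_apply]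

theorem iter_zero (T : X ≃ᵐ X) (x : X) : iter T 0 x = x := by
  simp [iter_apply]

theorem iter_one (T : X ≃ᵐ X) (x : X) : iter T 1 x = T x := by
  simp [iter_apply]

theorem iter_natCast (T : X ≃ᵐ X) (m : ℕ) : ⇑(iter T (m : ℤ)) = (⇑T)^[m] := by
  funext x
  rw [iter_apply, zpow_natCast]
  induction m generalizing x with
  | zero => simp
  | succ m ih =>
    rw [pow_succ, Equiv.Perm.mul_apply, Function.iterate_succ_apply]
    exact ih (T x)

theorem iter_measurePreserving {μ : Measure X} {T : X ≃ᵐ X} (hT : MeasurePreserving T μ μ)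
    (n : ℤ) : MeasurePreserving (iter T n) μ μ := by
  induction n using Int.induction_on with
  | zero =>
    have : ⇑(iter T 0) = id := by funext x; simp [iter_zero]
    rw [this]; exact MeasurePreserving.id μ
  | succ n ih =>
    have : ⇑(iter T ((n : ℤ) + 1)) = ⇑(iter T n) ∘ ⇑T := by
      funext x; rw [iter_add, iter_one]; rfl
    rw [this]; exact ih.comp hT
  | pred n ih =>
    have : ⇑(iter T (-(n : ℤ) - 1)) = ⇑(iter T (-(n : ℤ))) ∘ ⇑T.symm := by
      funext x
      rw [sub_eq_add_neg, iter_add]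
      rfl
    rw [this]; exact ih.comp (hT.symm T)

theorem integral_iter {μ : Measure X} {T : X ≃ᵐ X} (hT : MeasurePreserving T μ μ) (n : ℤ)
    (φ : X → ℂ) : ∫ x, φ (iter T n x) ∂μ = ∫ x, φ x ∂μ :=
  (iter_measurePreserving hT n).integral_comp' φ

theorem memLp_iter {μ : Measure X} {T : X ≃ᵐ X} (hT : MeasurePreserving T μ μ) (n : ℤ)
    {φ : X → ℂ} (hφ : MemLp φ 2 μ) : MemLp (fun x => φ (iter T n x)) 2 μ :=
  hφ.comp_measurePreserving (iter_measurePreserving hT n)

end Vale.Agent.P130
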