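import Vale.Agent.P130.Bridge

namespace Vale.Agent.P130

open MeasureTheory
open scoped ComplexConjugate InnerProductSpace

variable {X : Type*} [MeasurableSpace X] {μ : Measure X}

/-- If `T` has a Lebesgue generator, then every mean zero square integrable function with
orthonormal orbit is a Lebesgue generator. -/
theorem generator_of_orthonormal [IsProbabilityMeasure μ] {T : X ≃ᵐ X}
    (hT : MeasurePreserving T μ μ) {f : X → ℂ} (hf : IsLebesgueGenerator μ T f)
    {w : X → ℂ} (hw2 : MemLp w 2 μ) (hw0 : ∫ x, w x ∂μ = 0)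
    (hwo : ∀ n m : ℤ, ∫ x, w ((T.toEquiv ^ n) x) * conj (w ((T.toEquiv ^ m) x)) ∂μ
      = if n = m then 1 else 0) : IsLebesgueGenerator μ T w := by
  refine ⟨hw2, hw0, hwo, ?_⟩
  intro g hg2 hg0 hgo
  obtain ⟨b, hb0, hbn⟩ := exists_basis hT hf
  set W : ℤ → Lp ℂ 2 μ := fun n => (memLp_iter hT n hw2).toLp (fun x => w (iter T n x)) with hW
  have hWon : Orthonormal ℂ W := by
    rw [orthonormal_iff_ite]
    intro n m
    simp only [hW]
    rw [inner_toLp]
    simp only [iter_apply]
    rw [hwo m n]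
    by_cases h : n = m
    · simp [h]
    · simp [h, Ne.symm h]
  have hW0 : ⟪b none, W 0⟫_ℂ = 0 := by
    rw [hb0]
    simp only [hW]
    rw [inner_toLp]
    simp only [iter_zero, map_one, mul_one]
    exact hw0
  have hshift : ∀ n k : ℤ, ⟪W n, b (some k)⟫_ℂ = ⟪W 0, b (some (k - n))⟫_ℂ := by
    intro n k
    rw [hbn, hbn]
    simp only [hW]
    rw [inner_toLp, inner_toLp]
    have := integral_iter hT n (fun y => f (iter T (k - n) y) * conj (w (iter T 0 y)))
    rw [← this]
    apply integral_congr_ae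
    filter_upwards with x
    rw [← iter_add, iter_zero, sub_add_cancel]
  have hv0 : ⟪b none, hg2.toLp g⟫_ℂ = 0 := by
    rw [hb0, inner_toLp]
    simpa using hg0
  have hv : ∀ n, ⟪W n, hg2.toLp g⟫_ℂ = 0 := by
    intro n
    simp only [hW]
    rw [inner_toLp]
    exact hgo n
  have := total_of_shift b W hWon hW0 hshift (hg2.toLp g) hv0 hv
  have h2 := (Lp.eq_zero_iff_ae_eq_zero).1 this
  exact hg2.coeFn_toLp.symm.trans h2

end Vale.Agent.P130
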