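import Vale.Agent.P130.Maximal

namespace Vale.Agent.P130

open MeasureTheory Filter
open scoped ComplexConjugate InnerProductSpace Topology

variable {X : Type*} [MeasurableSpace X] {μ : Measure X}

/-- A mean zero square integrable function invariant under a nonzero power of `T` vanishes. -/
theorem ae_zero_of_periodic [IsProbabilityMeasure μ] {T : X ≃ᵐ X}
    (hT : MeasurePreserving T μ μ) {w : X → ℂ} (hw : IsLebesgueGenerator μ T w)
    {g : X → ℂ} (hg2 : MemLp g 2 μ) (hg0 : ∫ x, g x ∂μ = 0) {m : ℕ} (hm : 0 < m)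
    (hper : (fun x => g (iter T (m : ℤ) x)) =ᵐ[μ] g) : g =ᵐ[μ] 0 := by
  obtain ⟨hw2, hw0, hwo, hwc⟩ := hw
  apply hwc g hg2 hg0
  set a : ℤ → ℂ := fun n => ∫ x, g x * conj (w ((T.toEquiv ^ n) x)) ∂μ with ha
  have hstep : ∀ n : ℤ, a n = a (n - m) := by
    intro n
    simp only [ha]
    have h1 : ∫ x, g x * conj (w ((T.toEquiv ^ n) x)) ∂μ
        = ∫ x, g (iter T (m : ℤ) x) * conj (w ((T.toEquiv ^ n) x)) ∂μ := by
      apply integral_congr_ae
      filter_upwards [hper] with x hx
      rw [hx]
    rw [h1, ← integral_iter hT (m : ℤ) (fun y => g y * conj (w ((T.toEquiv ^ (n - m)) y)))]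
    apply integral_congr_ae
    filter_upwards with x
    rw [← iter_apply, ← iter_apply, ← iter_add, sub_add_cancel]
  have hiter : ∀ (j : ℕ) (n : ℤ), a n = a (n - j * m) := by
    intro j
    induction j with
    | zero => intro n; simp
    | succ j ih =>
      intro n
      rw [ih n, hstep (n - j * m)]
      congr 1
      push_cast
      ring
  set W : ℤ → Lp ℂ 2 μ := fun n => (memLp_iter hT n hw2).toLp (fun x => w (iter T n x)) with hW
  have hWon : Orthonormal ℂ W := by
    rw [orthonormal_iff_ite]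
    intro n k
    simp only [hW]
    rw [inner_toLp]
    simp only [iter_apply]
    rw [hwo k n]
    by_cases h : n = k
    · simp [h]
    · simp [h, Ne.symm h]
  have hsum := hWon.inner_products_summable (hg2.toLp g)
  have hae : ∀ n, ⟪W n, hg2.toLp g⟫_ℂ = a n := by
    intro n
    simp only [hW, ha]
    rw [inner_toLp]
    rfl
  simp only [hae] at hsum
  have htend := hsum.tendsto_cofinite_zero
  intro n
  have hinj : Function.Injective (fun j : ℕ => n - (j : ℤ) * m) := by
    intro j k hjk
    simp only [sub_right_inj] at hjk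
    have hm' : (m : ℤ) ≠ 0 := by exact_mod_cast hm.ne'
    exact_mod_cast mul_right_cancel₀ hm' hjk
  have h2 := htend.comp hinj.tendsto_cofinite
  rw [Nat.cofinite_eq_atTop] at h2
  have h3 : (fun j : ℕ => ‖a n‖ ^ 2) = ((fun i => ‖a i‖ ^ 2) ∘ fun j : ℕ => n - (j : ℤ) * m) := by
    funext j
    simp only [Function.comp]
    rw [← hiter j n]
  rw [← h3] at h2
  have h4 : ‖a n‖ ^ 2 = 0 := tendsto_nhds_unique tendsto_const_nhds h2
  have h5 : a n = 0 := by
    have := pow_eq_zero_iff (two_ne_zero) |>.1 h4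
    exact norm_eq_zero.1 this
  exact h5

end Vale.Agent.P130
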